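import Vale.Agent.P258.R2.H394.Count

set_option linter.all false

/-!
Counting the homomorphisms of the group of a surgery on a satellite knot modulo `ℓ` times the
order of the target group: conjugation of the colouring of the companion by the longitude of `e`.
-/

namespace Vale.Agent.P258.H35

open Diagram Finset

/-! ### The longitude commutes with the meridian -/

theorem walk_prod {G : Type*} [Group G] (D : Diagram) (w : Fin D.n → G) (h : D.IsCol w)
    (a : Fin D.n) (n : ℕ) :
    w (D.next^[n] a) =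
      ((((List.range n).map fun i => D.next^[i] a).map fun b =>
        w (D.above b) ^ (D.sgn b : ℤ)).prod)⁻¹ * w a *
      (((List.range n).map fun i => D.next^[i] a).map fun b =>
        w (D.above b) ^ (D.sgn b : ℤ)).prod := by
  induction n with
  | zero => simp
  | succ n ih =>
    rw [Function.iterate_succ_apply', h, ih, List.range_succ, List.map_append, List.map_append,
      List.prod_append]
    simp only [List.map_cons, List.map_nil, List.prod_cons, List.prod_nil, mul_one]
    group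

theorem commute_lonVal {G : Type*} [Group G] (D : Diagram) (w : Fin D.n → G) (h : D.IsCol w)
    (a : Fin D.n) : w a * D.lonVal w a = D.lonVal w a * w a := by
  have h1 := walk_prod D w h a (Function.minimalPeriod D.next a)
  rw [Function.iterate_minimalPeriod] at h1
  unfold lonVal walk
  set P := (((List.range (Function.minimalPeriod D.next a)).map fun i => D.next^[i] a).map
    fun b => w (D.above b) ^ (D.sgn b : ℤ)).prod with hP
  have h2 : Commute (w a) P := by
    have : P * w a = w a * P := by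
      calc P * w a = P * (P⁻¹ * w a * P) := by rw [← h1]
        _ = w a * P := by group
    exact this.symm
  have h3 : Commute (w a) (P * w a ^ (-(D.selfWrithe a))) :=
    h2.mul_right ((Commute.refl (w a)).zpow_right _)
  exact h3.eq

/-! ### Fibres -/

/-- The colourings of the companion with meridian `g` and prescribed meridian of `e`. -/
def Fib {G : Type} [Group G] (J : Diagram) (j : Fin J.n) (f : ℤ) (g y : G) : Type :=
  {w : Fin J.n → G // J.IsCol w ∧ g = w j ∧ y = w j ^ f * J.lonVal w j}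

instance {G : Type} [Group G] [Finite G] (J : Diagram) (j : Fin J.n) (f : ℤ) (g y : G) :
    Finite (Fib J j f g y) := inferInstanceAs (Finite (Subtype _))

/-- Conjugation by the meridian. -/
def tw {G : Type} [Group G] (J : Diagram) (j : Fin J.n) (f : ℤ) (g y : G) :
    Function.End (Fib J j f g y) := fun w =>
  ⟨fun a => MulAut.conj g (w.1 a), by
    obtain ⟨w, h1, h2, h3⟩ := w
    refine ⟨h1.map J (MulAut.conj g).toMonoidHom, ?_, ?_⟩
    · change g = g * w j * g⁻¹
      rw [← h2]; group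
    · have h4 := J.lonVal_map w (MulAut.conj g).toMonoidHom j
      have h5 := commute_lonVal J w h1 j
      have h6 : (MulAut.conj g).toMonoidHom (J.lonVal w j) = J.lonVal w j := by
        change g * J.lonVal w j * g⁻¹ = J.lonVal w j
        rw [h2, h5]; group
      have h7 : MulAut.conj g (w j) = w j := by
        change g * w j * g⁻¹ = w j
        rw [← h2]; group
      change y = MulAut.conj g (w j) ^ f *
        J.lonVal (fun b => (MulAut.conj g).toMonoidHom (w b)) j
      rw [h4, h6, h7]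
      exact h3⟩

theorem tw_pow {G : Type} [Group G] (J : Diagram) (j : Fin J.n) (f : ℤ) (g y : G) (n : ℕ)
    (w : Fib J j f g y) : ((tw J j f g y ^ n : Function.End (Fib J j f g y)) w).1 =
      fun a => g ^ n * w.1 a * (g ^ n)⁻¹ := by
  induction n with
  | zero =>
    funext a
    simp
    rfl
  | succ n ih =>
    rw [pow_succ']
    change (tw J j f g y ((tw J j f g y ^ n : Function.End (Fib J j f g y)) w)).1 = _
    funext a
    change MulAut.conj g (((tw J j f g y ^ n : Function.End (Fib J j f g y)) w).1 a) = _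
    rw [ih]
    change g * (g ^ n * w.1 a * (g ^ n)⁻¹) * g⁻¹ = _
    rw [pow_succ']
    group

theorem fib_modEq {G : Type} [Group G] [Finite G] (ℓ : ℕ) [Fact ℓ.Prime] (J : Diagram)
    (hJ : J.IsKnot) (j : Fin J.n) (f : ℤ) (g y : G) (hg : g ^ ℓ = 1) [Decidable (y = g ^ f)] :
    ((ℓ : ℕ) : ℤ) ∣ (Nat.card (Fib J j f g y) : ℤ) - (if y = g ^ f then 1 else 0) := by
  classical
  haveI : Fintype (Fib J j f g y) := Fintype.ofFinite _
  have hT : (tw J j f g y) ^ ℓ ^ 1 = 1 := by
    funext w
    apply Subtype.ext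
    rw [pow_one, tw_pow, hg]
    funext a
    simp
    rfl
  have h := Equiv.Perm.card_fixedPoints_modEq hT
  have hfix : Nat.card (Function.fixedPoints (tw J j f g y)) =
      if y = g ^ f then 1 else 0 := by
    rw [Nat.card_eq_fintype_card]
    have hw : ∀ w ∈ Function.fixedPoints (tw J j f g y), ∀ a, w.1 a = g := by
      intro w hw
      have h1 : ∀ a, g * w.1 a * g⁻¹ = w.1 a := fun a => congrFun (congrArg Subtype.val hw) a
      intro a
      obtain ⟨i, rfl⟩ := hJ j a
      induction i with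
      | zero => exact w.2.2.1.symm
      | succ i ih =>
        rw [Function.iterate_succ_apply', w.2.1, ih]
        have h2 := h1 (J.above (J.next^[i] j))
        have h3 : Commute g (w.1 (J.above (J.next^[i] j))) := by
          have : g * w.1 (J.above (J.next^[i] j)) = w.1 (J.above (J.next^[i] j)) * g := by
            calc _ = (g * w.1 (J.above (J.next^[i] j)) * g⁻¹) * g := by group
              _ = _ := by rw [h2]
          exact this
        have h4 := (h3.zpow_right (J.sgn (J.next^[i] j) : ℤ)).eq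
        rw [mul_assoc, h4, ← mul_assoc, ← zpow_add]
        simp
    by_cases hy : y = g ^ f
    · rw [if_pos hy, Fintype.card_eq_one_iff]
      refine ⟨⟨⟨fun _ => g, J.isCol_const g, rfl, ?_⟩, ?_⟩, ?_⟩
      · rw [J.lonVal_const hJ, mul_one, hy]
      · apply Subtype.ext
        funext a
        change g * g * g⁻¹ = g
        group
      · rintro ⟨w, hw'⟩
        apply Subtype.ext
        apply Subtype.ext
        funext a
        exact hw w hw' a
    · rw [if_neg hy, Fintype.card_eq_zero_iff]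
      constructor
      rintro ⟨w, hw'⟩
      apply hy
      have h1 : w.1 = fun _ => g := funext (hw w hw')
      have h2 := w.2.2.2
      rw [h1, J.lonVal_const hJ, mul_one] at h2
      exact h2
  rw [← Nat.card_eq_fintype_card, ← Nat.card_eq_fintype_card, hfix] at h
  have h8 := (Nat.modEq_iff_dvd.1 h.symm)
  by_cases hy : y = g ^ f
  · rw [if_pos hy] at h8 ⊢
    simpa using h8
  · rw [if_neg hy] at h8 ⊢
    simpa using h8

/-! ### Free actions -/

theorem card_dvd_of_free {G β : Type} [Group G] [Finite G] [Finite β] [MulAction G β]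
    (h : ∀ (g : G) (b : β), g • b = b → g = 1) : Nat.card G ∣ Nat.card β := by
  classical
  haveI : Fintype (MulAction.orbitRel.Quotient G β) := Fintype.ofFinite _
  rw [Nat.card_congr (MulAction.selfEquivSigmaOrbitsQuotientStabilizer G β), Nat.card_sigma]
  refine Finset.dvd_sum fun ω _ => ?_
  have h1 : MulAction.stabilizer G (Quotient.out ω) = ⊥ := by
    rw [eq_bot_iff]
    intro g hg
    exact h g _ hg
  rw [h1]
  exact (Subgroup.index_bot (G := G)).symm.dvd

theorem sum_free {G V : Type} [Group G] [Finite G] [Fintype V] [MulAction G V] (ℓ : ℕ)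
    (D : V → ℤ) (hinv : ∀ (g : G) v, D (g • v) = D v) (hdvd : ∀ v, (ℓ : ℤ) ∣ D v)
    (hfree : ∀ v, D v ≠ 0 → ∀ g : G, g • v = v → g = 1) :
    ((ℓ * Nat.card G : ℕ) : ℤ) ∣ ∑ v, D v := by
  classical
  have h0 := Finset.sum_comp (s := (Finset.univ : Finset V)) (fun n : ℤ => n) D
  rw [h0]
  refine Finset.dvd_sum fun b hb => ?_
  obtain ⟨v0, -, hv0⟩ := Finset.mem_image.1 hb
  by_cases hb0 : b = 0
  · rw [hb0]; simp
  let S : SubMulAction G V :=
    { carrier := {v | D v = b}
      smul_mem' := fun g v hv => (hinv g v).trans hv }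
  have h1 : Nat.card G ∣ Nat.card S := by
    apply card_dvd_of_free (G := G) (β := S)
    intro g v hg
    have h2 : D v.1 = b := v.2
    exact hfree v.1 (by rw [h2]; exact hb0) g (congrArg Subtype.val hg)
  have h2 : Nat.card S = #{a ∈ (Finset.univ : Finset V) | D a = b} := by
    rw [← Fintype.card_subtype, ← Nat.card_eq_fintype_card]
    rfl
  rw [h2] at h1
  rw [nsmul_eq_mul]
  push_cast
  rw [mul_comm (ℓ : ℤ)]
  exact mul_dvd_mul (Int.natCast_dvd_natCast.2 h1) (hv0 ▸ hdvd v0)

/-! ### The colourings with the conjugation action -/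

/-- The colourings of `P` in `G`. -/
def Col (G : Type) [Group G] (P : Diagram) : Type := {v : Fin P.n → G // P.IsCol v}

instance (G : Type) [Group G] [Finite G] (P : Diagram) : Finite (Col G P) :=
  inferInstanceAs (Finite (Subtype _))

instance (G : Type) [Group G] (P : Diagram) : MulAction G (Col G P) where
  smul g v := ⟨fun a => MulAut.conj g (v.1 a), v.2.map P (MulAut.conj g).toMonoidHom⟩
  one_smul v := Subtype.ext (by
    funext a
    change 1 * v.1 a * 1⁻¹ = v.1 a
    group)
  mul_smul g h v := Subtype.ext (by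
    funext a
    change g * h * v.1 a * (g * h)⁻¹ = g * (h * v.1 a * h⁻¹) * g⁻¹
    group)

theorem smul_val {G : Type} [Group G] {P : Diagram} (g : G) (v : Col G P) (a : Fin P.n) :
    (g • v).1 a = g * v.1 a * g⁻¹ := rfl

theorem lonVal_smul {G : Type} [Group G] {P : Diagram} (g : G) (v : Col G P) (a : Fin P.n) :
    P.lonVal (g • v).1 a = g * P.lonVal v.1 a * g⁻¹ :=
  P.lonVal_map v.1 (MulAut.conj g).toMonoidHom a

theorem card_fib_conj {G : Type} [Group G] (J : Diagram) (j : Fin J.n) (f : ℤ) (g x y : G) :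
    Nat.card (Fib J j f (g * x * g⁻¹) (g * y * g⁻¹)) = Nat.card (Fib J j f x y) := by
  have key : ∀ (g x y : G) (w : Fin J.n → G),
      (J.IsCol w ∧ x = w j ∧ y = w j ^ f * J.lonVal w j) →
      (J.IsCol (fun a => MulAut.conj g (w a)) ∧ g * x * g⁻¹ = MulAut.conj g (w j) ∧
        g * y * g⁻¹ = MulAut.conj g (w j) ^ f * J.lonVal (fun a => MulAut.conj g (w a)) j) := by
    rintro g x y w ⟨h1, h2, h3⟩
    refine ⟨h1.map J (MulAut.conj g).toMonoidHom, ?_, ?_⟩
    · rw [h2]; rfl
    · have h4 := J.lonVal_map w (MulAut.conj g).toMonoidHom j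
      change _ = _ * J.lonVal (fun b => (MulAut.conj g).toMonoidHom (w b)) j
      rw [h4, ← map_zpow]
      change _ = MulAut.conj g (w j ^ f) * MulAut.conj g (J.lonVal w j)
      rw [← map_mul, ← h3]
      rfl
  refine Nat.card_congr
    { toFun := fun w => ⟨fun a => MulAut.conj g⁻¹ (w.1 a), ?_⟩
      invFun := fun w => ⟨fun a => MulAut.conj g (w.1 a), key g x y w.1 w.2⟩
      left_inv := ?_
      right_inv := ?_ }
  · have h := key g⁻¹ _ _ w.1 w.2
    have e1 : ∀ z : G, g⁻¹ * (g * z * g⁻¹) * g⁻¹⁻¹ = z := fun z => by group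
    rw [e1, e1] at h
    exact h
  · intro w
    apply Subtype.ext
    funext a
    change g * (g⁻¹ * w.1 a * g⁻¹⁻¹) * g⁻¹ = w.1 a
    group
  · intro w
    apply Subtype.ext
    funext a
    change g⁻¹ * (g * w.1 a * g⁻¹) * g⁻¹⁻¹ = w.1 a
    group

theorem fib_empty {G : Type} [Group G] (J : Diagram) (hJ : J.IsKnot) (j : Fin J.n) (f : ℤ) (y : G)
    (hy : y ≠ 1) : Nat.card (Fib J j f 1 y) = 0 := by
  have : IsEmpty (Fib J j f (1 : G) y) := by
    constructor
    rintro ⟨w, h1, h2, h3⟩
    have hall : ∀ b, w b = 1 := fun b => Diagram.IsCol.eq_one J h1 (hJ j b) h2.symm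
    rw [Diagram.lonVal_of_one J hall, ← h2] at h3
    apply hy
    rw [h3]
    simp
  exact Nat.card_of_isEmpty

/-! ### The count -/

section

variable {G : Type} [Group G] [Finite G] (P J : Diagram) (k e : Fin P.n) (j : Fin J.n)
  (f p q : ℤ)

/-- The number of homomorphisms as a sum over the colourings of `P`. -/
theorem card_hom_sum [Fintype (Col G P)] (s : ℤ)
    [∀ v : Col G P, Decidable (v.1 k ^ s * P.lonVal v.1 k = 1)] :
    (Nat.card (PresentedGroup (satelliteRelators P J k e j f s) →* G) : ℤ) =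
      ∑ v : Col G P, if v.1 k ^ s * P.lonVal v.1 k = 1 then
        (Nat.card (Fib J j f (P.lonVal v.1 e) (v.1 e)) : ℤ) else 0 := by
  classical
  rw [card_hom_eq]
  have e1 : {σ : Fin P.n ⊕ Fin J.n → G //
      ∀ r ∈ satelliteRelators P J k e j f s, FreeGroup.lift σ r = 1} ≃
      (Σ v : Col G P, {w : Fin J.n → G // (J.IsCol w ∧ P.lonVal v.1 e = w j ∧
        v.1 e = w j ^ f * J.lonVal w j) ∧ v.1 k ^ s * P.lonVal v.1 k = 1}) :=
    { toFun := fun σ => ⟨⟨σ.1 ∘ Sum.inl, ((sat_iff P J k e j f s σ.1).1 σ.2).1⟩,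
        ⟨σ.1 ∘ Sum.inr, ⟨((sat_iff P J k e j f s σ.1).1 σ.2).2.1,
          ((sat_iff P J k e j f s σ.1).1 σ.2).2.2.1,
          ((sat_iff P J k e j f s σ.1).1 σ.2).2.2.2.1⟩,
          ((sat_iff P J k e j f s σ.1).1 σ.2).2.2.2.2⟩⟩
      invFun := fun x => ⟨Sum.elim x.1.1 x.2.1, (sat_iff P J k e j f s _).2
        ⟨x.1.2, x.2.2.1.1, x.2.2.1.2.1, x.2.2.1.2.2, x.2.2.2⟩⟩
      left_inv := by
        intro σ
        apply Subtype.ext
        funext x
        rcases x with x | x <;> rfl
      right_inv := by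
        intro x
        rfl }
  rw [Nat.card_congr e1, Nat.card_sigma]
  push_cast
  refine Finset.sum_congr rfl fun v _ => ?_
  by_cases hv : v.1 k ^ s * P.lonVal v.1 k = 1
  · rw [if_pos hv]
    congr 1
    refine Nat.card_congr (Equiv.subtypeEquivRight fun w => ?_)
    exact and_iff_left hv
  · rw [if_neg hv]
    have : IsEmpty {w : Fin J.n → G // (J.IsCol w ∧ P.lonVal v.1 e = w j ∧
        v.1 e = w j ^ f * J.lonVal w j) ∧ v.1 k ^ s * P.lonVal v.1 k = 1} :=
      ⟨fun w => hv w.2.2⟩
    rw [Nat.card_of_isEmpty]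
    rfl

/-- The difference between the fibre over `v` and its twist invariant part, for the slope `s`. -/
theorem part_dvd (ℓ : ℕ) [Fact ℓ.Prime] (hJ : J.IsKnot) (m s : ℤ)
    (hT : ∀ v : Fin P.n → G, P.IsCol v → v k ^ s * P.lonVal v k = 1 → v k ^ m ≠ 1 →
      (P.lonVal v e = 1 → v e = 1) →
      (∀ g : G, (∀ a, g * v a * g⁻¹ = v a) → g = 1) ∧ P.lonVal v e ^ ℓ = 1)
    [Fintype (Col G P)] [∀ v : Col G P, Decidable (v.1 k ^ s * P.lonVal v.1 k = 1 ∧ v.1 k ^ m ≠ 1)]
    [∀ v : Col G P, Decidable (v.1 e = P.lonVal v.1 e ^ f)] :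
    ((ℓ * Nat.card G : ℕ) : ℤ) ∣ ∑ v : Col G P,
      if v.1 k ^ s * P.lonVal v.1 k = 1 ∧ v.1 k ^ m ≠ 1 then
        (Nat.card (Fib J j f (P.lonVal v.1 e) (v.1 e)) : ℤ) -
          (if v.1 e = P.lonVal v.1 e ^ f then 1 else 0) else 0 := by
  classical
  have hgood : ∀ v : Col G P, (v.1 k ^ s * P.lonVal v.1 k = 1 ∧ v.1 k ^ m ≠ 1) →
      ¬ (P.lonVal v.1 e = 1 → v.1 e = 1) →
      (Nat.card (Fib J j f (P.lonVal v.1 e) (v.1 e)) : ℤ) -
          (if v.1 e = P.lonVal v.1 e ^ f then 1 else 0) = 0 := by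
    intro v _ hv
    push Not at hv
    obtain ⟨h1, h2⟩ := hv
    have h3 : ¬ (v.1 e = P.lonVal v.1 e ^ f) := by
      rw [h1, one_zpow]; exact h2
    rw [if_neg h3, h1, fib_empty J hJ j f _ h2]
    simp
  apply sum_free (G := G)
  · intro g v
    have hk : (g • v).1 k ^ s * P.lonVal (g • v).1 k =
        g * (v.1 k ^ s * P.lonVal v.1 k) * g⁻¹ := by
      rw [lonVal_smul, smul_val, conj_zpow]; group
    have hk2 : ((g • v).1 k ^ s * P.lonVal (g • v).1 k = 1 ∧ (g • v).1 k ^ m ≠ 1) ↔
        (v.1 k ^ s * P.lonVal v.1 k = 1 ∧ v.1 k ^ m ≠ 1) := by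
      rw [hk, smul_val, conj_zpow, ne_eq, ne_eq, conj_eq_one_iff, conj_eq_one_iff]
    have he2 : ((g • v).1 e = P.lonVal (g • v).1 e ^ f) ↔ (v.1 e = P.lonVal v.1 e ^ f) := by
      rw [lonVal_smul, smul_val, conj_zpow]
      constructor
      · intro h
        exact mul_left_cancel (mul_right_cancel h)
      · intro h
        rw [← h]
    have hf : Nat.card (Fib J j f (P.lonVal (g • v).1 e) ((g • v).1 e)) =
        Nat.card (Fib J j f (P.lonVal v.1 e) (v.1 e)) := by
      rw [lonVal_smul, smul_val, card_fib_conj]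
    simp only [hk2, he2, hf]
  · intro v
    split_ifs with h1 h2
    · have := fib_modEq ℓ J hJ j f (P.lonVal v.1 e) (v.1 e) ?_
      · rw [if_pos h2] at this; exact this
      · refine (hT v.1 v.2 h1.1 h1.2 ?_).2
        intro h3
        rw [h2, h3, one_zpow]
    · by_cases h3 : P.lonVal v.1 e = 1 → v.1 e = 1
      · have := fib_modEq ℓ J hJ j f (P.lonVal v.1 e) (v.1 e) (hT v.1 v.2 h1.1 h1.2 h3).2
        rw [if_neg h2] at this; exact this
      · have := hgood v h1 h3
        rw [if_neg h2] at this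
        rw [this]
        exact dvd_zero _
    · exact dvd_zero _
  · intro v hv g hg
    have h1 : v.1 k ^ s * P.lonVal v.1 k = 1 ∧ v.1 k ^ m ≠ 1 := by
      by_contra h
      rw [if_neg h] at hv
      exact hv rfl
    rw [if_pos h1] at hv
    have h3 : P.lonVal v.1 e = 1 → v.1 e = 1 := by
      by_contra h
      exact hv (hgood v h1 h)
    refine (hT v.1 v.2 h1.1 h1.2 h3).1 g fun a => ?_
    have := congrFun (congrArg Subtype.val hg) a
    exact this

/-- The number of colourings that extend by a constant colouring of the companion. -/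
theorem card_const [Fintype (Col G P)] (m s : ℤ)
    [∀ v : Col G P, Decidable (v.1 k ^ s * P.lonVal v.1 k = 1 ∧ v.1 k ^ m ≠ 1)]
    [∀ v : Col G P, Decidable (v.1 e = P.lonVal v.1 e ^ f)] :
    (Nat.card {v : Fin P.n → G // P.IsCol v ∧ v k ^ s * P.lonVal v k = 1 ∧ v k ^ m ≠ 1 ∧
      v e = P.lonVal v e ^ f} : ℤ) = ∑ v : Col G P,
      if v.1 k ^ s * P.lonVal v.1 k = 1 ∧ v.1 k ^ m ≠ 1 then
          (if v.1 e = P.lonVal v.1 e ^ f then 1 else 0) else 0 := by
  classical
  have e1 : {v : Fin P.n → G // P.IsCol v ∧ v k ^ s * P.lonVal v k = 1 ∧ v k ^ m ≠ 1 ∧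
      v e = P.lonVal v e ^ f} ≃ {v : Col G P // (v.1 k ^ s * P.lonVal v.1 k = 1 ∧
        v.1 k ^ m ≠ 1) ∧ v.1 e = P.lonVal v.1 e ^ f} :=
    { toFun := fun v => ⟨⟨v.1, v.2.1⟩, ⟨v.2.2.1, v.2.2.2.1⟩, v.2.2.2.2⟩
      invFun := fun v => ⟨v.1.1, v.1.2, v.2.1.1, v.2.1.2, v.2.2⟩
      left_inv := fun v => rfl
      right_inv := fun v => rfl }
  rw [Nat.card_congr e1, Nat.card_eq_fintype_card, Fintype.card_subtype, Finset.card_filter]
  push_cast
  refine Finset.sum_congr rfl fun v _ => ?_
  by_cases h1 : v.1 k ^ s * P.lonVal v.1 k = 1 ∧ v.1 k ^ m ≠ 1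
  · by_cases h2 : v.1 e = P.lonVal v.1 e ^ f
    · rw [if_pos ⟨h1, h2⟩, if_pos h1, if_pos h2]
    · rw [if_neg (fun h => h2 h.2), if_pos h1, if_neg h2]
  · rw [if_neg (fun h => h1 h.1), if_neg h1]

/-- **The counting criterion.**  If, for the colourings `v` of `P` which kill one of the curves of
slope `p` and `q` on `k`, do not kill `v k ^ (p - q)`, and kill the meridian of `e` if they kill
its longitude, the centralizer is trivial and the longitude of `e` has order dividing the prime
`ℓ`, and the numbers of the colourings with `v e = (longitude e) ^ f` for the two slopes are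
different modulo `ℓ |G|`, then the numbers of homomorphisms to `G` of the groups of the two
surgeries on the satellites are different, for every companion. -/
theorem count_ne (ℓ : ℕ) [Fact ℓ.Prime] (hJ : J.IsKnot)
    (hT : ∀ v : Fin P.n → G, P.IsCol v →
      (v k ^ p * P.lonVal v k = 1 ∨ v k ^ q * P.lonVal v k = 1) → v k ^ (p - q) ≠ 1 →
      (P.lonVal v e = 1 → v e = 1) →
      (∀ g : G, (∀ a, g * v a * g⁻¹ = v a) → g = 1) ∧ P.lonVal v e ^ ℓ = 1)
    (hR : ¬ ((ℓ * Nat.card G : ℕ) : ℤ) ∣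
      (Nat.card {v : Fin P.n → G // P.IsCol v ∧ v k ^ p * P.lonVal v k = 1 ∧
        v k ^ (p - q) ≠ 1 ∧ v e = P.lonVal v e ^ f} : ℤ) -
      (Nat.card {v : Fin P.n → G // P.IsCol v ∧ v k ^ q * P.lonVal v k = 1 ∧
        v k ^ (p - q) ≠ 1 ∧ v e = P.lonVal v e ^ f} : ℤ)) :
    Nat.card (PresentedGroup (satelliteRelators P J k e j f p) →* G) ≠
      Nat.card (PresentedGroup (satelliteRelators P J k e j f q) →* G) := by
  classical
  intro φ
  haveI : Fintype (Col G P) := Fintype.ofFinite _
  apply hR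
  have hN : (Nat.card (PresentedGroup (satelliteRelators P J k e j f p) →* G) : ℤ) =
      Nat.card (PresentedGroup (satelliteRelators P J k e j f q) →* G) := by
    rw [φ]
  have d1 := part_dvd P J k e j f ℓ hJ (p - q) p
    (fun v h1 h2 h3 h4 => hT v h1 (Or.inl h2) h3 h4)
  have d2 := part_dvd P J k e j f ℓ hJ (p - q) q
    (fun v h1 h2 h3 h4 => hT v h1 (Or.inr h2) h3 h4)
  have d3 := dvd_sub d2 d1
  rw [card_const P k e f (p - q) p, card_const P k e f (p - q) q]
  rw [card_hom_sum P J k e j f p, card_hom_sum P J k e j f q] at hN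
  rw [← Finset.sum_sub_distrib] at d3 ⊢
  have hN' := sub_eq_zero.2 hN
  rw [← Finset.sum_sub_distrib] at hN'
  have h4 : ∀ v : Col G P, v.1 k ^ (p - q) = 1 →
      (v.1 k ^ p * P.lonVal v.1 k = 1 ↔ v.1 k ^ q * P.lonVal v.1 k = 1) := by
    intro v hv
    have : v.1 k ^ p = v.1 k ^ q := by
      have h5 : v.1 k ^ p = v.1 k ^ (p - q) * v.1 k ^ q := by
        rw [← zpow_add]; congr 1; ring
      rw [h5, hv, one_mul]
    rw [this]
  have h7 : ∀ A B : ℤ, ((ℓ * Nat.card G : ℕ) : ℤ) ∣ A → B - A = 0 →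
      ((ℓ * Nat.card G : ℕ) : ℤ) ∣ B := by
    intro A B hA hB
    rw [sub_eq_zero.1 hB]; exact hA
  refine h7 _ _ d3 ?_
  rw [← Finset.sum_sub_distrib]
  refine Eq.trans (Finset.sum_congr rfl fun v _ => ?_) hN'
  have h5 := h4 v
  by_cases hv : v.1 k ^ (p - q) = 1
  · by_cases hp : v.1 k ^ p * P.lonVal v.1 k = 1
    · have hq := (h5 hv).1 hp
      simp [hv, hp, hq]
    · have hq : ¬ v.1 k ^ q * P.lonVal v.1 k = 1 := fun h => hp ((h5 hv).2 h)
      simp [hv, hp, hq]
  · by_cases hp : v.1 k ^ p * P.lonVal v.1 k = 1 <;>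
    by_cases hq : v.1 k ^ q * P.lonVal v.1 k = 1 <;>
    by_cases he : v.1 e = P.lonVal v.1 e ^ f <;>
    simp only [hv, hp, hq, he, ne_eq, not_false_eq_true, and_true, and_self, and_false,
      false_and, true_and, not_true_eq_false, if_true, if_false] <;>
    ring

/-- The counting criterion for the fundamental groups. -/
theorem count_main (ℓ : ℕ) [Fact ℓ.Prime] (hJ : J.IsKnot)
    (hT : ∀ v : Fin P.n → G, P.IsCol v →
      (v k ^ p * P.lonVal v k = 1 ∨ v k ^ q * P.lonVal v k = 1) → v k ^ (p - q) ≠ 1 →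
      (P.lonVal v e = 1 → v e = 1) →
      (∀ g : G, (∀ a, g * v a * g⁻¹ = v a) → g = 1) ∧ P.lonVal v e ^ ℓ = 1)
    (hR : ¬ ((ℓ * Nat.card G : ℕ) : ℤ) ∣
      (Nat.card {v : Fin P.n → G // P.IsCol v ∧ v k ^ p * P.lonVal v k = 1 ∧
        v k ^ (p - q) ≠ 1 ∧ v e = P.lonVal v e ^ f} : ℤ) -
      (Nat.card {v : Fin P.n → G // P.IsCol v ∧ v k ^ q * P.lonVal v k = 1 ∧
        v k ^ (p - q) ≠ 1 ∧ v e = P.lonVal v e ^ f} : ℤ)) :
    IsEmpty (PresentedGroup (satelliteRelators P J k e j f p) ≃*
      PresentedGroup (satelliteRelators P J k e j f q)) :=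
  ⟨fun φ => count_ne P J k e j f p q ℓ hJ hT hR
    (Nat.card_congr (MulEquiv.monoidHomCongrLeftEquiv φ))⟩

end

end Vale.Agent.P258.H35
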