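import Vale.Agent.P258.R2.H35.CountMod

set_option linter.all false

/-!
The counting criterion for the homomorphisms whose composition with a homomorphism `ε` from the
target group to a commutative group is nontrivial.
-/

namespace Vale.Agent.P258.H35

open Diagram Finset

/-! ### The graded number of homomorphisms -/

section

variable {G : Type} [Group G] {A : Type} [CommGroup A] (ε : G →* A)

/-- The number of the homomorphisms to `G` whose composition with `ε` is nontrivial. -/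
noncomputable def gradedCount {α : Type} (R : Set (FreeGroup α)) : ℕ :=
  Nat.card {ρ : PresentedGroup R →* G // ε.comp ρ ≠ 1}

theorem gradedCount_congr {α β : Type} {R : Set (FreeGroup α)} {S : Set (FreeGroup β)}
    (φ : PresentedGroup R ≃* PresentedGroup S) : gradedCount ε R = gradedCount ε S := by
  refine Nat.card_congr (Equiv.subtypeEquiv (MulEquiv.monoidHomCongrLeftEquiv φ) fun ρ => ?_)
  rw [not_iff_not]
  constructor
  · intro h
    ext x
    exact DFunLike.congr_fun h (φ.symm (PresentedGroup.of x))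
  · intro h
    ext x
    have h1 := DFunLike.congr_fun h (φ (PresentedGroup.of x))
    have h2 : ((MulEquiv.monoidHomCongrLeftEquiv φ) ρ) (φ (PresentedGroup.of x)) =
        ρ (PresentedGroup.of x) := by
      change ρ (φ.symm (φ (PresentedGroup.of x))) = _
      rw [MulEquiv.symm_apply_apply]
    change ε (((MulEquiv.monoidHomCongrLeftEquiv φ) ρ) (φ (PresentedGroup.of x))) = 1 at h1
    rw [h2] at h1
    exact h1

theorem gradedCount_eq {α : Type} (T : Set (FreeGroup α)) :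
    gradedCount ε T =
      Nat.card {σ : α → G // (∀ r ∈ T, FreeGroup.lift σ r = 1) ∧ ∃ x, ε (σ x) ≠ 1} := by
  refine Nat.card_congr
    { toFun := fun f => ⟨fun a => f.1 (PresentedGroup.of a), ?_, ?_⟩,
      invFun := fun σ => ⟨PresentedGroup.toGroup (f := σ.1) σ.2.1, ?_⟩,
      left_inv := ?_, right_inv := ?_ }
  · intro r hr
    have h3 : FreeGroup.lift (fun a => f.1 (PresentedGroup.of a)) =
        f.1.comp (PresentedGroup.mk T) := by
      ext a
      simp [PresentedGroup.of]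
    rw [h3, MonoidHom.comp_apply]
    have : PresentedGroup.mk T r = 1 := PresentedGroup.one_of_mem hr
    rw [this, map_one]
  · by_contra h
    push Not at h
    apply f.2
    ext x
    exact h x
  · intro h
    obtain ⟨x, hx⟩ := σ.2.2
    apply hx
    have h1 := DFunLike.congr_fun h (PresentedGroup.of x)
    change ε (PresentedGroup.toGroup (f := σ.1) σ.2.1 (PresentedGroup.of x)) = 1 at h1
    rw [PresentedGroup.toGroup.of] at h1
    exact h1
  · intro f
    apply Subtype.ext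
    ext a
    simp
  · intro σ
    apply Subtype.ext
    funext a
    simp

end

/-! ### The count -/

section

variable {G : Type} [Group G] [Finite G] {A : Type} [CommGroup A] (ε : G →* A) (P J : Diagram)
  (k e : Fin P.n) (j : Fin J.n) (f p q : ℤ)

/-- The grade of a homomorphism of the group of the surgery is that of the meridian of `k`. -/
theorem grade_iff (hJ : J.IsKnot) (hP : ∀ a, P.SameComponent k a ∨ P.SameComponent e a)
    (hlk : ∀ v : Fin P.n → G, P.IsCol v → ε (v k) = 1 → ε (P.lonVal v e) = 1)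
    (σ : Fin P.n ⊕ Fin J.n → G) (s : ℤ)
    (h : P.IsCol (σ ∘ Sum.inl) ∧ J.IsCol (σ ∘ Sum.inr) ∧
      P.lonVal (σ ∘ Sum.inl) e = σ (Sum.inr j) ∧
      σ (Sum.inl e) = σ (Sum.inr j) ^ f * J.lonVal (σ ∘ Sum.inr) j ∧
      σ (Sum.inl k) ^ s * P.lonVal (σ ∘ Sum.inl) k = 1) :
    (∃ x, ε (σ x) ≠ 1) ↔ ε (σ (Sum.inl k)) ≠ 1 := by
  constructor
  · rintro ⟨x, hx⟩ hk
    apply hx
    obtain ⟨h1, h2, h3, h4, h5⟩ := h
    have c1 := h1.map P ε
    have c2 := h2.map J ε
    have hj : ε (σ (Sum.inr j)) = 1 := by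
      rw [← h3]; exact hlk _ h1 hk
    have hb : ∀ b, ε (σ (Sum.inr b)) = 1 := fun b => Diagram.IsCol.eq_one J c2 (hJ j b) hj
    have hl : ε (J.lonVal (σ ∘ Sum.inr) j) = 1 := by
      rw [← J.lonVal_map]
      exact Diagram.lonVal_of_one J hb j
    have he : ε (σ (Sum.inl e)) = 1 := by
      rw [h4, map_mul, map_zpow, hj, hl, one_zpow, one_mul]
    rcases x with a | b
    · rcases hP a with ha | ha
      · exact Diagram.IsCol.eq_one P c1 ha hk
      · exact Diagram.IsCol.eq_one P c1 ha he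
    · exact hb b
  · intro h
    exact ⟨_, h⟩

/-- The graded number of homomorphisms as a sum over the colourings of `P`. -/
theorem graded_sum (hJ : J.IsKnot) (hP : ∀ a, P.SameComponent k a ∨ P.SameComponent e a)
    (hlk : ∀ v : Fin P.n → G, P.IsCol v → ε (v k) = 1 → ε (P.lonVal v e) = 1)
    [Fintype (Col G P)] (s : ℤ)
    [∀ v : Col G P, Decidable (ε (v.1 k) ≠ 1 ∧ v.1 k ^ s * P.lonVal v.1 k = 1)] :
    (gradedCount ε (satelliteRelators P J k e j f s) : ℤ) =
      ∑ v : Col G P, if ε (v.1 k) ≠ 1 ∧ v.1 k ^ s * P.lonVal v.1 k = 1 then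
        (Nat.card (Fib J j f (P.lonVal v.1 e) (v.1 e)) : ℤ) else 0 := by
  classical
  rw [gradedCount_eq]
  have e1 : {σ : Fin P.n ⊕ Fin J.n → G //
      (∀ r ∈ satelliteRelators P J k e j f s, FreeGroup.lift σ r = 1) ∧ ∃ x, ε (σ x) ≠ 1} ≃
      (Σ v : Col G P, {w : Fin J.n → G // (J.IsCol w ∧ P.lonVal v.1 e = w j ∧
        v.1 e = w j ^ f * J.lonVal w j) ∧ (ε (v.1 k) ≠ 1 ∧
          v.1 k ^ s * P.lonVal v.1 k = 1)}) :=
    { toFun := fun σ => ⟨⟨σ.1 ∘ Sum.inl, ((sat_iff P J k e j f s σ.1).1 σ.2.1).1⟩,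
        ⟨σ.1 ∘ Sum.inr, ⟨((sat_iff P J k e j f s σ.1).1 σ.2.1).2.1,
          ((sat_iff P J k e j f s σ.1).1 σ.2.1).2.2.1,
          ((sat_iff P J k e j f s σ.1).1 σ.2.1).2.2.2.1⟩,
          ⟨(grade_iff ε P J k e j f hJ hP hlk σ.1 s
            ((sat_iff P J k e j f s σ.1).1 σ.2.1)).1 σ.2.2,
          ((sat_iff P J k e j f s σ.1).1 σ.2.1).2.2.2.2⟩⟩⟩
      invFun := fun x => ⟨Sum.elim x.1.1 x.2.1, (sat_iff P J k e j f s _).2
        ⟨x.1.2, x.2.2.1.1, x.2.2.1.2.1, x.2.2.1.2.2, x.2.2.2.2⟩, ⟨Sum.inl k, x.2.2.2.1⟩⟩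
      left_inv := by
        intro σ
        apply Subtype.ext
        funext x
        rcases x with x | x <;> rfl
      right_inv := by
        intro x
        rfl }
  rw [Nat.card_congr e1, Nat.card_sigma]
  push_cast
  refine Finset.sum_congr rfl fun v _ => ?_
  by_cases hv : ε (v.1 k) ≠ 1 ∧ v.1 k ^ s * P.lonVal v.1 k = 1
  · rw [if_pos hv]
    congr 1
    refine Nat.card_congr (Equiv.subtypeEquivRight fun w => ?_)
    exact and_iff_left hv
  · rw [if_neg hv]
    have : IsEmpty {w : Fin J.n → G // (J.IsCol w ∧ P.lonVal v.1 e = w j ∧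
        v.1 e = w j ^ f * J.lonVal w j) ∧ (ε (v.1 k) ≠ 1 ∧ v.1 k ^ s * P.lonVal v.1 k = 1)} :=
      ⟨fun w => hv w.2.2⟩
    rw [Nat.card_of_isEmpty]
    rfl

/-- A colouring of the companion can exist only if a central meridian determines the meridian of
`e`, and the longitude has grade one. -/
theorem fib_bad (hJ : J.IsKnot) (g y : G)
    (h : ¬ ((g ∈ Subgroup.center G → y = g ^ f) ∧ ε y = ε g ^ f)) :
    Nat.card (Fib J j f g y) = 0 := by
  have : IsEmpty (Fib J j f g y) := by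
    constructor
    rintro ⟨w, h1, h2, h3⟩
    apply h
    constructor
    · intro hg
      have hall : ∀ a, w a = g := by
        intro a
        obtain ⟨i, rfl⟩ := hJ j a
        induction i with
        | zero => exact h2.symm
        | succ i ih =>
          rw [Function.iterate_succ_apply', h1, ih]
          have h4 := (Subgroup.mem_center_iff.1 hg)
            (w (J.above (J.next^[i] j)) ^ (J.sgn (J.next^[i] j) : ℤ))
          rw [mul_assoc, ← h4, ← mul_assoc, ← zpow_add]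
          simp
      have h5 : w = fun _ => g := funext hall
      rw [h3, h5, J.lonVal_const hJ, mul_one]
    · have c := h1.map J ε
      have hall : ∀ a, ε (w a) = ε g := by
        intro a
        obtain ⟨i, rfl⟩ := hJ j a
        induction i with
        | zero => rw [h2]; rfl
        | succ i ih =>
          rw [Function.iterate_succ_apply']
          refine (c _).trans ?_
          change ε (w (J.above (J.next^[i] j))) ^ (-(J.sgn (J.next^[i] j) : ℤ)) *
            ε (w (J.next^[i] j)) * ε (w (J.above (J.next^[i] j))) ^ (J.sgn (J.next^[i] j) : ℤ) =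
            ε g
          rw [ih, mul_comm, ← mul_assoc, ← zpow_add]
          simp
      have h5 : (fun a => ε (w a)) = fun _ => ε g := funext hall
      have h6 : ε (J.lonVal w j) = 1 := by
        rw [← J.lonVal_map, h5, J.lonVal_const hJ]
      rw [h3, map_mul, map_zpow, h6, mul_one, ← h2]
  exact Nat.card_of_isEmpty

/-- The fibres over the colourings with the property `S`, modulo `ℓ |G|`. -/
theorem part_dvdS (ℓ : ℕ) [Fact ℓ.Prime] (hJ : J.IsKnot) [Fintype (Col G P)]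
    (S : Col G P → Prop) [DecidablePred S] (hS : ∀ (g : G) v, S (g • v) ↔ S v)
    (hT : ∀ v : Col G P, S v → (P.lonVal v.1 e ∈ Subgroup.center G → v.1 e = P.lonVal v.1 e ^ f) →
      ε (v.1 e) = ε (P.lonVal v.1 e) ^ f →
      (∀ g : G, (∀ a, g * v.1 a * g⁻¹ = v.1 a) → g = 1) ∧ P.lonVal v.1 e ^ ℓ = 1)
    [∀ v : Col G P, Decidable (v.1 e = P.lonVal v.1 e ^ f)] :
    ((ℓ * Nat.card G : ℕ) : ℤ) ∣ ∑ v : Col G P,
      if S v then (Nat.card (Fib J j f (P.lonVal v.1 e) (v.1 e)) : ℤ) -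
          (if v.1 e = P.lonVal v.1 e ^ f then 1 else 0) else 0 := by
  classical
  have hbad : ∀ v : Col G P,
      ¬ ((P.lonVal v.1 e ∈ Subgroup.center G → v.1 e = P.lonVal v.1 e ^ f) ∧
        ε (v.1 e) = ε (P.lonVal v.1 e) ^ f) →
      (Nat.card (Fib J j f (P.lonVal v.1 e) (v.1 e)) : ℤ) -
          (if v.1 e = P.lonVal v.1 e ^ f then 1 else 0) = 0 := by
    intro v hv
    have h3 : ¬ (v.1 e = P.lonVal v.1 e ^ f) := by
      intro h
      exact hv ⟨fun _ => h, by rw [h, map_zpow]⟩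
    rw [if_neg h3, fib_bad ε J j f hJ _ _ hv]
    simp
  apply sum_free (G := G)
  · intro g v
    have he2 : ((g • v).1 e = P.lonVal (g • v).1 e ^ f) ↔ (v.1 e = P.lonVal v.1 e ^ f) := by
      rw [lonVal_smul, smul_val, conj_zpow]
      constructor
      · intro h
        exact mul_left_cancel (mul_right_cancel h)
      · intro h
        rw [← h]
    have hf : Nat.card (Fib J j f (P.lonVal (g • v).1 e) ((g • v).1 e)) =
        Nat.card (Fib J j f (P.lonVal v.1 e) (v.1 e)) := by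
      rw [lonVal_smul, smul_val, card_fib_conj]
    simp only [hS, he2, hf]
  · intro v
    by_cases h1 : S v
    · rw [if_pos h1]
      by_cases h3 : (P.lonVal v.1 e ∈ Subgroup.center G → v.1 e = P.lonVal v.1 e ^ f) ∧
        ε (v.1 e) = ε (P.lonVal v.1 e) ^ f
      · exact fib_modEq ℓ J hJ j f (P.lonVal v.1 e) (v.1 e) (hT v h1 h3.1 h3.2).2
      · rw [hbad v h3]
        exact dvd_zero _
    · rw [if_neg h1]
      exact dvd_zero _
  · intro v hv g hg
    have h1 : S v := by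
      by_contra h
      rw [if_neg h] at hv
      exact hv rfl
    rw [if_pos h1] at hv
    have h3 : (P.lonVal v.1 e ∈ Subgroup.center G → v.1 e = P.lonVal v.1 e ^ f) ∧
        ε (v.1 e) = ε (P.lonVal v.1 e) ^ f := by
      by_contra h
      exact hv (hbad v h)
    refine (hT v h1 h3.1 h3.2).1 g fun a => ?_
    exact congrFun (congrArg Subtype.val hg) a

/-- The number of colourings that extend by a constant colouring of the companion. -/
theorem card_constS [Fintype (Col G P)] (m s : ℤ)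
    [∀ v : Col G P, Decidable (ε (v.1 k) ≠ 1 ∧ v.1 k ^ s * P.lonVal v.1 k = 1 ∧ v.1 k ^ m ≠ 1)]
    [∀ v : Col G P, Decidable (v.1 e = P.lonVal v.1 e ^ f)] :
    (Nat.card {v : Fin P.n → G // P.IsCol v ∧ ε (v k) ≠ 1 ∧ v k ^ s * P.lonVal v k = 1 ∧
      v k ^ m ≠ 1 ∧ v e = P.lonVal v e ^ f} : ℤ) = ∑ v : Col G P,
      if ε (v.1 k) ≠ 1 ∧ v.1 k ^ s * P.lonVal v.1 k = 1 ∧ v.1 k ^ m ≠ 1 then
          (if v.1 e = P.lonVal v.1 e ^ f then 1 else 0) else 0 := by
  classical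
  have e1 : {v : Fin P.n → G // P.IsCol v ∧ ε (v k) ≠ 1 ∧ v k ^ s * P.lonVal v k = 1 ∧
      v k ^ m ≠ 1 ∧ v e = P.lonVal v e ^ f} ≃ {v : Col G P // (ε (v.1 k) ≠ 1 ∧
        v.1 k ^ s * P.lonVal v.1 k = 1 ∧ v.1 k ^ m ≠ 1) ∧ v.1 e = P.lonVal v.1 e ^ f} :=
    { toFun := fun v => ⟨⟨v.1, v.2.1⟩, ⟨v.2.2.1, v.2.2.2.1, v.2.2.2.2.1⟩, v.2.2.2.2.2⟩
      invFun := fun v => ⟨v.1.1, v.1.2, v.2.1.1, v.2.1.2.1, v.2.1.2.2, v.2.2⟩
      left_inv := fun v => rfl
      right_inv := fun v => rfl }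
  rw [Nat.card_congr e1, Nat.card_eq_fintype_card, Fintype.card_subtype, Finset.card_filter]
  push_cast
  refine Finset.sum_congr rfl fun v _ => ?_
  by_cases h1 : ε (v.1 k) ≠ 1 ∧ v.1 k ^ s * P.lonVal v.1 k = 1 ∧ v.1 k ^ m ≠ 1
  · by_cases h2 : v.1 e = P.lonVal v.1 e ^ f
    · rw [if_pos ⟨h1, h2⟩, if_pos h1, if_pos h2]
    · rw [if_neg (fun h => h2 h.2), if_pos h1, if_neg h2]
  · rw [if_neg (fun h => h1 h.1), if_neg h1]

/-- **The graded counting criterion.** -/
theorem graded_ne (ℓ : ℕ) [Fact ℓ.Prime] (hJ : J.IsKnot)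
    (hP : ∀ a, P.SameComponent k a ∨ P.SameComponent e a)
    (hlk : ∀ v : Fin P.n → G, P.IsCol v → ε (v k) = 1 → ε (P.lonVal v e) = 1)
    (hT : ∀ v : Fin P.n → G, P.IsCol v → ε (v k) ≠ 1 →
      (v k ^ p * P.lonVal v k = 1 ∨ v k ^ q * P.lonVal v k = 1) → v k ^ (p - q) ≠ 1 →
      (P.lonVal v e ∈ Subgroup.center G → v e = P.lonVal v e ^ f) →
      ε (v e) = ε (P.lonVal v e) ^ f →
      (∀ g : G, (∀ a, g * v a * g⁻¹ = v a) → g = 1) ∧ P.lonVal v e ^ ℓ = 1)
    (hR : ¬ ((ℓ * Nat.card G : ℕ) : ℤ) ∣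
      (Nat.card {v : Fin P.n → G // P.IsCol v ∧ ε (v k) ≠ 1 ∧ v k ^ p * P.lonVal v k = 1 ∧
        v k ^ (p - q) ≠ 1 ∧ v e = P.lonVal v e ^ f} : ℤ) -
      (Nat.card {v : Fin P.n → G // P.IsCol v ∧ ε (v k) ≠ 1 ∧ v k ^ q * P.lonVal v k = 1 ∧
        v k ^ (p - q) ≠ 1 ∧ v e = P.lonVal v e ^ f} : ℤ)) :
    gradedCount ε (satelliteRelators P J k e j f p) ≠
      gradedCount ε (satelliteRelators P J k e j f q) := by
  classical
  intro φ
  haveI : Fintype (Col G P) := Fintype.ofFinite _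
  apply hR
  have hN : (gradedCount ε (satelliteRelators P J k e j f p) : ℤ) =
      gradedCount ε (satelliteRelators P J k e j f q) := by
    rw [φ]
  have hinv : ∀ (s : ℤ) (g : G) (v : Col G P),
      (ε ((g • v).1 k) ≠ 1 ∧ (g • v).1 k ^ s * P.lonVal (g • v).1 k = 1 ∧
        (g • v).1 k ^ (p - q) ≠ 1) ↔
      (ε (v.1 k) ≠ 1 ∧ v.1 k ^ s * P.lonVal v.1 k = 1 ∧ v.1 k ^ (p - q) ≠ 1) := by
    intro s g v
    have hk : (g • v).1 k ^ s * P.lonVal (g • v).1 k =
        g * (v.1 k ^ s * P.lonVal v.1 k) * g⁻¹ := by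
      rw [lonVal_smul, smul_val, conj_zpow]; group
    have hε : ε ((g • v).1 k) = ε (v.1 k) := by
      rw [smul_val, map_mul, map_mul, map_inv, mul_comm (ε g), mul_assoc, mul_inv_cancel, mul_one]
    rw [hk, hε, smul_val, conj_zpow, ne_eq, ne_eq, ne_eq, conj_eq_one_iff, conj_eq_one_iff]
  have d1 := part_dvdS ε P J e j f ℓ hJ
    (fun v => ε (v.1 k) ≠ 1 ∧ v.1 k ^ p * P.lonVal v.1 k = 1 ∧ v.1 k ^ (p - q) ≠ 1)
    (hinv p) (fun v h1 h2 h3 => hT v.1 v.2 h1.1 (Or.inl h1.2.1) h1.2.2 h2 h3)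
  have d2 := part_dvdS ε P J e j f ℓ hJ
    (fun v => ε (v.1 k) ≠ 1 ∧ v.1 k ^ q * P.lonVal v.1 k = 1 ∧ v.1 k ^ (p - q) ≠ 1)
    (hinv q) (fun v h1 h2 h3 => hT v.1 v.2 h1.1 (Or.inr h1.2.1) h1.2.2 h2 h3)
  have d3 := dvd_sub d2 d1
  rw [card_constS ε P k e f (p - q) p, card_constS ε P k e f (p - q) q]
  rw [graded_sum ε P J k e j f hJ hP hlk p, graded_sum ε P J k e j f hJ hP hlk q] at hN
  rw [← Finset.sum_sub_distrib] at d3 ⊢
  have hN' := sub_eq_zero.2 hN
  rw [← Finset.sum_sub_distrib] at hN'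
  have h4 : ∀ v : Col G P, v.1 k ^ (p - q) = 1 →
      (v.1 k ^ p * P.lonVal v.1 k = 1 ↔ v.1 k ^ q * P.lonVal v.1 k = 1) := by
    intro v hv
    have : v.1 k ^ p = v.1 k ^ q := by
      have h5 : v.1 k ^ p = v.1 k ^ (p - q) * v.1 k ^ q := by
        rw [← zpow_add]; congr 1; ring
      rw [h5, hv, one_mul]
    rw [this]
  have h7 : ∀ A B : ℤ, ((ℓ * Nat.card G : ℕ) : ℤ) ∣ A → B - A = 0 →
      ((ℓ * Nat.card G : ℕ) : ℤ) ∣ B := by
    intro A B hA hB
    rw [sub_eq_zero.1 hB]; exact hA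
  refine h7 _ _ d3 ?_
  rw [← Finset.sum_sub_distrib]
  refine Eq.trans (Finset.sum_congr rfl fun v _ => ?_) hN'
  have h5 := h4 v
  by_cases hg : ε (v.1 k) = 1
  · simp only [hg, ne_eq, not_true_eq_false, false_and, if_false]
    ring
  by_cases hv : v.1 k ^ (p - q) = 1
  · by_cases hp : v.1 k ^ p * P.lonVal v.1 k = 1
    · have hq := (h5 hv).1 hp
      simp [hg, hv, hp, hq]
    · have hq : ¬ v.1 k ^ q * P.lonVal v.1 k = 1 := fun h => hp ((h5 hv).2 h)
      simp [hg, hv, hp, hq]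
  · by_cases hp : v.1 k ^ p * P.lonVal v.1 k = 1 <;>
    by_cases hq : v.1 k ^ q * P.lonVal v.1 k = 1 <;>
    by_cases he : v.1 e = P.lonVal v.1 e ^ f <;>
    simp only [hg, hv, hp, hq, he, ne_eq, not_false_eq_true, and_true, and_self, and_false,
      false_and, true_and, not_true_eq_false, if_true, if_false] <;>
    ring

/-- The graded counting criterion for the fundamental groups. -/
theorem graded_main (ℓ : ℕ) [Fact ℓ.Prime] (hJ : J.IsKnot)
    (hP : ∀ a, P.SameComponent k a ∨ P.SameComponent e a)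
    (hlk : ∀ v : Fin P.n → G, P.IsCol v → ε (v k) = 1 → ε (P.lonVal v e) = 1)
    (hT : ∀ v : Fin P.n → G, P.IsCol v → ε (v k) ≠ 1 →
      (v k ^ p * P.lonVal v k = 1 ∨ v k ^ q * P.lonVal v k = 1) → v k ^ (p - q) ≠ 1 →
      (P.lonVal v e ∈ Subgroup.center G → v e = P.lonVal v e ^ f) →
      ε (v e) = ε (P.lonVal v e) ^ f →
      (∀ g : G, (∀ a, g * v a * g⁻¹ = v a) → g = 1) ∧ P.lonVal v e ^ ℓ = 1)
    (hR : ¬ ((ℓ * Nat.card G : ℕ) : ℤ) ∣
      (Nat.card {v : Fin P.n → G // P.IsCol v ∧ ε (v k) ≠ 1 ∧ v k ^ p * P.lonVal v k = 1 ∧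
        v k ^ (p - q) ≠ 1 ∧ v e = P.lonVal v e ^ f} : ℤ) -
      (Nat.card {v : Fin P.n → G // P.IsCol v ∧ ε (v k) ≠ 1 ∧ v k ^ q * P.lonVal v k = 1 ∧
        v k ^ (p - q) ≠ 1 ∧ v e = P.lonVal v e ^ f} : ℤ)) :
    IsEmpty (PresentedGroup (satelliteRelators P J k e j f p) ≃*
      PresentedGroup (satelliteRelators P J k e j f q)) :=
  ⟨fun φ => graded_ne ε P J k e j f p q ℓ hJ hP hlk hT hR (gradedCount_congr ε φ)⟩

end

end Vale.Agent.P258.H35
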