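import Vale.Agent.P258.R2.H35.Graded

set_option linter.all false

/-!
A criterion for an inequality between the graded numbers of homomorphisms for two slopes: the
colourings for one slope are matched with colourings for the other one.
-/

namespace Vale.Agent.P258.H35

open Diagram Finset

section

variable {G : Type} [Group G] [Finite G] {A : Type} [CommGroup A] (ε : G →* A) (P J : Diagram)
  (k e : Fin P.n) (j : Fin J.n) (f p q : ℤ)

/-- The number of extensions of an assignment over the companion. -/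
noncomputable def ext (v : Fin P.n → G) : ℕ := Nat.card (Fib J j f (P.lonVal v e) (v e))

theorem ext_conj (v w : Fin P.n → G) (h : G) (h1 : P.lonVal w e = h * P.lonVal v e * h⁻¹)
    (h2 : w e = h * v e * h⁻¹) : ext P J e j f w = ext P J e j f v := by
  unfold ext
  rw [h1, h2, card_fib_conj]

theorem ext_smul (v : Fin P.n → G) (g : G) :
    ext P J e j f (fun a => g * v a * g⁻¹) = ext P J e j f v :=
  ext_conj P J e j f v _ g (P.lonVal_map v (MulAut.conj g).toMonoidHom e) rfl

theorem ext_pos (hJ : J.IsKnot) (v : Fin P.n → G) (h : v e = P.lonVal v e ^ f) :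
    0 < ext P J e j f v := by
  haveI : Nonempty (Fib J j f (P.lonVal v e) (v e)) :=
    ⟨⟨fun _ => P.lonVal v e, J.isCol_const _, rfl, by rw [J.lonVal_const hJ, mul_one, h]⟩⟩
  exact Nat.card_pos

theorem graded_sum_nat (hJ : J.IsKnot) (hP : ∀ a, P.SameComponent k a ∨ P.SameComponent e a)
    (hlk : ∀ v : Fin P.n → G, P.IsCol v → ε (v k) = 1 → ε (P.lonVal v e) = 1)
    [Fintype (Col G P)] (s : ℤ)
    [∀ v : Col G P, Decidable (ε (v.1 k) ≠ 1 ∧ v.1 k ^ s * P.lonVal v.1 k = 1)] :
    gradedCount ε (satelliteRelators P J k e j f s) =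
      ∑ v : Col G P, if ε (v.1 k) ≠ 1 ∧ v.1 k ^ s * P.lonVal v.1 k = 1 then
        ext P J e j f v.1 else 0 := by
  have h := graded_sum ε P J k e j f hJ hP hlk s
  zify
  rw [h]
  refine Finset.sum_congr rfl fun v _ => ?_
  split_ifs
  · rfl
  · rfl

/-- Splitting off the part common to the two slopes. -/
theorem graded_split (hJ : J.IsKnot) (hP : ∀ a, P.SameComponent k a ∨ P.SameComponent e a)
    (hlk : ∀ v : Fin P.n → G, P.IsCol v → ε (v k) = 1 → ε (P.lonVal v e) = 1)
    [Fintype (Col G P)] (s : ℤ) (hs : s = p ∨ s = q)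
    [∀ v : Col G P, Decidable (ε (v.1 k) ≠ 1 ∧ v.1 k ^ p * P.lonVal v.1 k = 1 ∧
      v.1 k ^ (p - q) = 1)]
    [∀ v : Col G P, Decidable (ε (v.1 k) ≠ 1 ∧ v.1 k ^ s * P.lonVal v.1 k = 1 ∧
      v.1 k ^ (p - q) ≠ 1)] :
    gradedCount ε (satelliteRelators P J k e j f s) =
      (∑ v : Col G P, if ε (v.1 k) ≠ 1 ∧ v.1 k ^ p * P.lonVal v.1 k = 1 ∧
        v.1 k ^ (p - q) = 1 then ext P J e j f v.1 else 0) +
      ∑ v : Col G P, if ε (v.1 k) ≠ 1 ∧ v.1 k ^ s * P.lonVal v.1 k = 1 ∧
        v.1 k ^ (p - q) ≠ 1 then ext P J e j f v.1 else 0 := by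
  classical
  rw [graded_sum_nat ε P J k e j f hJ hP hlk s, ← Finset.sum_add_distrib]
  refine Finset.sum_congr rfl fun v _ => ?_
  by_cases hv : v.1 k ^ (p - q) = 1
  · have h4 : v.1 k ^ p = v.1 k ^ q := by
      have h5 : v.1 k ^ p = v.1 k ^ (p - q) * v.1 k ^ q := by
        rw [← zpow_add]; congr 1; ring
      rw [h5, hv, one_mul]
    have h6 : v.1 k ^ s = v.1 k ^ p := by
      rcases hs with rfl | rfl
      · rfl
      · exact h4.symm
    have h7 : (v.1 k ^ s * P.lonVal v.1 k = 1) ↔ (v.1 k ^ p * P.lonVal v.1 k = 1) := by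
      rw [h6]
    by_cases h8 : ε (v.1 k) ≠ 1 ∧ v.1 k ^ p * P.lonVal v.1 k = 1
    · rw [if_pos ⟨h8.1, h7.2 h8.2⟩, if_pos ⟨h8.1, h8.2, hv⟩, if_neg (fun h => h.2.2 hv), add_zero]
    · rw [if_neg (fun h => h8 ⟨h.1, h7.1 h.2⟩), if_neg (fun h => h8 ⟨h.1, h.2.1⟩),
        if_neg (fun h => h.2.2 hv)]
  · simp [hv]

/-- **The ordering criterion.**  The colourings `v` for the slope `q` which can extend over a
companion are conjugate to colourings in a list `d`; the list `c` consists of colourings for the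
slope `p`, pairwise not conjugate, with trivial centralizers, and with the same longitudes and
meridians of `e` as those of `d`, up to conjugation; and `v₀` is one more colouring for the slope
`p` which extends over every companion. -/
theorem order_lt (hJ : J.IsKnot) (hP : ∀ a, P.SameComponent k a ∨ P.SameComponent e a)
    (hlk : ∀ v : Fin P.n → G, P.IsCol v → ε (v k) = 1 → ε (P.lonVal v e) = 1)
    {m : ℕ} (d c : Fin m → Fin P.n → G) (v₀ : Fin P.n → G)
    (hq : ∀ v : Fin P.n → G, P.IsCol v → ε (v k) ≠ 1 → v k ^ q * P.lonVal v k = 1 →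
      v k ^ (p - q) ≠ 1 →
      (P.lonVal v e ∈ Subgroup.center G → v e = P.lonVal v e ^ f) →
      ε (v e) = ε (P.lonVal v e) ^ f → ∃ i g, ∀ a, v a = g * d i a * g⁻¹)
    (hc : ∀ i, P.IsCol (c i) ∧ ε (c i k) ≠ 1 ∧ c i k ^ p * P.lonVal (c i) k = 1 ∧
      c i k ^ (p - q) ≠ 1)
    (hcd : ∀ i, ∃ h, P.lonVal (c i) e = h * P.lonVal (d i) e * h⁻¹ ∧ c i e = h * d i e * h⁻¹)
    (hinj : ∀ i i' g, (∀ a, g * c i a * g⁻¹ = c i' a) → i = i' ∧ g = 1)
    (h0 : P.IsCol v₀ ∧ ε (v₀ k) ≠ 1 ∧ v₀ k ^ p * P.lonVal v₀ k = 1 ∧ v₀ k ^ (p - q) ≠ 1 ∧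
      v₀ e = P.lonVal v₀ e ^ f)
    (h1 : ∀ i g, ¬ ∀ a, g * c i a * g⁻¹ = v₀ a) :
    gradedCount ε (satelliteRelators P J k e j f q) <
      gradedCount ε (satelliteRelators P J k e j f p) := by
  classical
  haveI : Fintype (Col G P) := Fintype.ofFinite _
  haveI : Fintype G := Fintype.ofFinite _
  rw [graded_split ε P J k e j f p q hJ hP hlk p (Or.inl rfl),
    graded_split ε P J k e j f p q hJ hP hlk q (Or.inr rfl)]
  apply Nat.add_lt_add_left
  -- the upper bound for the slope `q`
  have hU : (∑ v : Col G P, if ε (v.1 k) ≠ 1 ∧ v.1 k ^ q * P.lonVal v.1 k = 1 ∧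
        v.1 k ^ (p - q) ≠ 1 then ext P J e j f v.1 else 0) ≤
      ∑ x : Fin m × G, ext P J e j f (d x.1) := by
    calc _ ≤ ∑ v : Col G P, ∑ x : Fin m × G,
          (if ∀ a, v.1 a = x.2 * d x.1 a * x.2⁻¹ then ext P J e j f (d x.1) else 0) := by
          refine Finset.sum_le_sum fun v _ => ?_
          by_cases hv : ε (v.1 k) ≠ 1 ∧ v.1 k ^ q * P.lonVal v.1 k = 1 ∧ v.1 k ^ (p - q) ≠ 1
          · rw [if_pos hv]
            by_cases hg : (P.lonVal v.1 e ∈ Subgroup.center G → v.1 e = P.lonVal v.1 e ^ f) ∧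
              ε (v.1 e) = ε (P.lonVal v.1 e) ^ f
            · obtain ⟨i, g, hx⟩ := hq v.1 v.2 hv.1 hv.2.1 hv.2.2 hg.1 hg.2
              have h2 : ext P J e j f v.1 = ext P J e j f (d i) := by
                have h3 : v.1 = fun a => g * d i a * g⁻¹ := funext hx
                rw [h3, ext_smul]
              calc ext P J e j f v.1 = (if ∀ a, v.1 a = (i, g).2 * d (i, g).1 a * (i, g).2⁻¹ then
                    ext P J e j f (d (i, g).1) else 0) := by rw [if_pos hx, h2]
                _ ≤ _ := Finset.single_le_sum (f := fun x : Fin m × G =>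
                    (if ∀ a, v.1 a = x.2 * d x.1 a * x.2⁻¹ then ext P J e j f (d x.1) else 0))
                    (fun _ _ => Nat.zero_le _) (Finset.mem_univ (i, g))
            · have h2 : ext P J e j f v.1 = 0 := fib_bad ε J j f hJ _ _ hg
              rw [h2]
              exact Nat.zero_le _
          · rw [if_neg hv]
            exact Nat.zero_le _
      _ = ∑ x : Fin m × G, ∑ v : Col G P,
          (if ∀ a, v.1 a = x.2 * d x.1 a * x.2⁻¹ then ext P J e j f (d x.1) else 0) :=
          Finset.sum_comm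
      _ ≤ ∑ x : Fin m × G, ext P J e j f (d x.1) := by
          refine Finset.sum_le_sum fun x _ => ?_
          by_cases hx : ∃ v : Col G P, ∀ a, v.1 a = x.2 * d x.1 a * x.2⁻¹
          · obtain ⟨v, hv⟩ := hx
            rw [Finset.sum_eq_single v]
            · rw [if_pos hv]
            · intro w _ hw
              rw [if_neg]
              intro h
              apply hw
              apply Subtype.ext
              funext a
              rw [h a, hv a]
            · intro h
              exact absurd (Finset.mem_univ _) h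
          · rw [Finset.sum_eq_zero]
            · exact Nat.zero_le _
            · intro v _
              rw [if_neg]
              intro h
              exact hx ⟨v, h⟩
  -- the lower bound for the slope `p`
  let c' : Fin m → Col G P := fun i => ⟨c i, (hc i).1⟩
  let v' : Col G P := ⟨v₀, h0.1⟩
  let Φ : Option (Fin m × G) → Col G P := fun y => y.elim v' fun x => x.2 • c' x.1
  have hΦ : Function.Injective Φ := by
    intro y y' h
    rcases y with _ | ⟨i, g⟩ <;> rcases y' with _ | ⟨i', g'⟩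
    · rfl
    · exfalso
      exact h1 i' g' fun a => (congrFun (congrArg Subtype.val h) a).symm
    · exfalso
      exact h1 i g fun a => congrFun (congrArg Subtype.val h) a
    · have h2 : ∀ a, g * c i a * g⁻¹ = g' * c i' a * g'⁻¹ := fun a =>
        congrFun (congrArg Subtype.val h) a
      obtain ⟨h3, h4⟩ := hinj i i' (g'⁻¹ * g) fun a => by
        calc g'⁻¹ * g * c i a * (g'⁻¹ * g)⁻¹ = g'⁻¹ * (g * c i a * g⁻¹) * g' := by group
          _ = c i' a := by rw [h2]; group
      have h5 : g = g' := by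
        calc g = g' * (g'⁻¹ * g) := by group
          _ = g' := by rw [h4, mul_one]
      rw [h3, h5]
  have hL : (∑ y : Option (Fin m × G), ext P J e j f (Φ y).1) ≤
      ∑ v : Col G P, if ε (v.1 k) ≠ 1 ∧ v.1 k ^ p * P.lonVal v.1 k = 1 ∧
        v.1 k ^ (p - q) ≠ 1 then ext P J e j f v.1 else 0 := by
    have hgood : ∀ y, ε ((Φ y).1 k) ≠ 1 ∧ (Φ y).1 k ^ p * P.lonVal (Φ y).1 k = 1 ∧
        (Φ y).1 k ^ (p - q) ≠ 1 := by
      rintro (_ | ⟨i, g⟩)
      · exact ⟨h0.2.1, h0.2.2.1, h0.2.2.2.1⟩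
      · have hk : (g • c' i).1 k ^ p * P.lonVal (g • c' i).1 k =
            g * (c i k ^ p * P.lonVal (c i) k) * g⁻¹ := by
          rw [lonVal_smul, smul_val, conj_zpow]; group
          rfl
        have hε : ε ((g • c' i).1 k) = ε (c i k) := by
          rw [smul_val, map_mul, map_mul, map_inv, mul_comm (ε g), mul_assoc, mul_inv_cancel,
            mul_one]
        refine ⟨?_, ?_, ?_⟩
        · change ε ((g • c' i).1 k) ≠ 1
          rw [hε]; exact (hc i).2.1
        · change (g • c' i).1 k ^ p * P.lonVal (g • c' i).1 k = 1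
          rw [hk, (hc i).2.2.1]; group
        · change (g • c' i).1 k ^ (p - q) ≠ 1
          rw [smul_val, conj_zpow, ne_eq, conj_eq_one_iff]
          exact (hc i).2.2.2
    calc (∑ y : Option (Fin m × G), ext P J e j f (Φ y).1) =
        ∑ y : Option (Fin m × G), (fun v : Col G P => if ε (v.1 k) ≠ 1 ∧
          v.1 k ^ p * P.lonVal v.1 k = 1 ∧ v.1 k ^ (p - q) ≠ 1 then
          ext P J e j f v.1 else 0) (Φ y) := by
          refine Finset.sum_congr rfl fun y _ => ?_
          exact (if_pos (hgood y)).symm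
      _ = ∑ v ∈ (Finset.univ : Finset (Option (Fin m × G))).image Φ,
          (if ε (v.1 k) ≠ 1 ∧ v.1 k ^ p * P.lonVal v.1 k = 1 ∧ v.1 k ^ (p - q) ≠ 1 then
            ext P J e j f v.1 else 0) := by
          rw [Finset.sum_image fun a _ b _ h => hΦ h]
      _ ≤ _ := Finset.sum_le_sum_of_subset (Finset.subset_univ _)
  refine lt_of_le_of_lt hU (lt_of_lt_of_le ?_ hL)
  rw [Fintype.sum_option]
  have h2 : (∑ x : Fin m × G, ext P J e j f (Φ (some x)).1) =
      ∑ x : Fin m × G, ext P J e j f (d x.1) := by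
    refine Finset.sum_congr rfl fun x _ => ?_
    obtain ⟨i, g⟩ := x
    have h3 : ext P J e j f (fun a => g * c i a * g⁻¹) = ext P J e j f (c i) :=
      ext_smul P J e j f (c i) g
    obtain ⟨h, h4, h5⟩ := hcd i
    have h6 := ext_conj P J e j f (d i) (c i) h h4 h5
    exact h3.trans h6
  rw [h2]
  have h3 : 0 < ext P J e j f (Φ none).1 := ext_pos P J e j f hJ v₀ h0.2.2.2.2
  omega

end

end Vale.Agent.P258.H35
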